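import Vale.Agent.P207.N4.Spec

/-!
# P207: the clock `σ t x = ∫_0^t c (φ_s x) ds` (definition only)
-/

set_option linter.unusedSectionVars false

open Set Filter Topology Metric MeasureTheory

noncomputable section

namespace Vale.Agent.P207.N4.Clock

open Vale.Agent.P207.N3

variable [Dim]

variable {Γ X B : Type} [Group Γ] [MetricSpace X] [ProperSpace X] [MulAction Γ X]
  [IsIsometricSMul Γ X] [TopologicalSpace B] [CompactSpace B] [T2Space B] [MulAction Γ B]
  [ContinuousConstSMul Γ B]

/-- the clock `∫_0^t c (φ_s x) ds` -/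
def sg (L : Leaf Γ X B) (c : X → ℝ) (t : ℝ) (x : X) : ℝ := ∫ s in (0 : ℝ)..t, c (L.φ s x)

end Vale.Agent.P207.N4.Clock

end
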